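import Mathlib
import Vale.Agent.Lib.P045.Ordered
import Vale.Agent.Lib.P045.Simplex
import Vale.Agent.Lib.P045.Median
import Vale.Agent.Lib.P045.MedianInt

/-!
P045 (Ryser's conjecture): five results on `r`-partite `r`-uniform hypergraphs whose parts are linearly
ordered.  A hypergraph is a finite set `H` of functions `e : Fin r → α`; the edge `e` is the vertex set
`{(i, e i)}`.

1. shifted hypergraphs (`H` a lower set of `Fin r → ℕ`) with `ν = k ≥ 1`: `τ ≤ (r k + 1) / 2`, attained;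
2. closed under coordinatewise minimum and maximum: `τ = ν`;
3. closed under the coordinatewise median and having a least edge: `τ ≤ 2 ν`;
4. intersecting and closed under the coordinatewise median: `τ ≤ r - 1`;
5. intersecting and closed under coordinatewise minimum: `τ ≤ r - 1`.
-/

namespace Vale.Agent.Results.P045.AFiveClasses

open Vale.Agent.Lib.P045

theorem result :
    (∀ r k : ℕ, 2 ≤ r → 1 ≤ k →
      (∀ H : Finset (Fin r → ℕ), IsLowerSet (H : Set (Fin r → ℕ)) → nu H = k →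
        tau H ≤ (r * k + 1) / 2) ∧
      (∃ H : Finset (Fin r → ℕ), IsLowerSet (H : Set (Fin r → ℕ)) ∧ nu H = k ∧
        tau H = (r * k + 1) / 2)) ∧
    (∀ r : ℕ, 1 ≤ r → ∀ (α : Type) [LinearOrder α] (H : Finset (Fin r → α)),
      (∀ e ∈ H, ∀ f ∈ H, e ⊓ f ∈ H) → (∀ e ∈ H, ∀ f ∈ H, e ⊔ f ∈ H) → tau H = nu H) ∧
    (∀ r : ℕ, 1 ≤ r → ∀ (α : Type) [LinearOrder α] (H : Finset (Fin r → α)),
      (∀ x ∈ H, ∀ y ∈ H, ∀ z ∈ H, (x ⊓ y) ⊔ (y ⊓ z) ⊔ (z ⊓ x) ∈ H) →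
      (∃ b ∈ H, ∀ x ∈ H, b ≤ x) → tau H ≤ 2 * nu H) ∧
    (∀ r : ℕ, 2 ≤ r → ∀ (α : Type) [LinearOrder α] (H : Finset (Fin r → α)), H.Nonempty →
      (∀ x ∈ H, ∀ y ∈ H, ∀ z ∈ H, (x ⊓ y) ⊔ (y ⊓ z) ⊔ (z ⊓ x) ∈ H) →
      (∀ e ∈ H, ∀ f ∈ H, ∃ i, e i = f i) → tau H ≤ r - 1) ∧
    (∀ r : ℕ, 2 ≤ r → ∀ (α : Type) [LinearOrder α] (H : Finset (Fin r → α)), H.Nonempty →
      (∀ e ∈ H, ∀ f ∈ H, e ⊓ f ∈ H) → (∀ e ∈ H, ∀ f ∈ H, ∃ i, e i = f i) → tau H ≤ r - 1) := by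
  refine ⟨fun r k hr hk => ⟨fun H hH hnu => ?_, ?_⟩,
    fun r hr α _ H h1 h2 => lattice_konig r hr α H h1 h2,
    fun r hr α _ H h1 h2 => ?_,
    fun r hr α _ H hne h1 h2 => median_intersecting r hr α H hne h1 h2,
    fun r hr α _ H hne h1 h2 => meet_closed_intersecting r hr α H hne h1 h2⟩
  · have h := (shifted_ryser r hr H hH).1
    rw [hnu] at h
    omega
  · exact ⟨simplex r ((r * k + 1) / 2 - 1), simplex_lower _ _, simplex_extremal r k hr hk⟩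
  · obtain ⟨b, hb, hble⟩ := h2
    exact median_closed r hr α H h1 b hb hble

end Vale.Agent.Results.P045.AFiveClasses
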