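import Mathlib
import Vale.Agent.Lib.P045.Ordered
import Vale.Agent.Lib.P045.MedianInt

/-!
P045 (Ryser's conjecture), intersecting case, for hypergraphs closed under the coordinatewise median.

A hypergraph is a finite set `H` of functions `e : Fin r → α` (`α` a linear order); the edge `e` is the
vertex set `{(i, e i)}`.  If `H` is intersecting and closed under the coordinatewise median
`(x ⊓ y) ⊔ (y ⊓ z) ⊔ (z ⊓ x)` of three edges, then for every edge `c` some `r - 1` of the vertices of `c`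
already meet every edge; hence `τ(H) ≤ r - 1`.
-/

namespace Vale.Agent.Results.P045.AMedianIntersecting

open Vale.Agent.Lib.P045

theorem result (r : ℕ) (hr : 2 ≤ r) (α : Type) [LinearOrder α] (H : Finset (Fin r → α))
    (hne : H.Nonempty)
    (hmed : ∀ x ∈ H, ∀ y ∈ H, ∀ z ∈ H, (x ⊓ y) ⊔ (y ⊓ z) ⊔ (z ⊓ x) ∈ H)
    (hint : ∀ e ∈ H, ∀ f ∈ H, ∃ i, e i = f i) :
    tau H ≤ r - 1 ∧ ∀ c ∈ H, ∃ i : Fin r, ∀ e ∈ H, ∃ l, l ≠ i ∧ e l = c l :=
  ⟨median_intersecting r hr α H hne hmed hint,
   fun c hc => median_intersecting_cover r hr α H hmed hint c hc⟩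

end Vale.Agent.Results.P045.AMedianIntersecting
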