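import Mathlib
import Vale.Agent.Lib.P045.Ordered

/-!
P045 (Ryser's conjecture): three classes of `r`-partite `r`-uniform hypergraphs whose parts are
linearly ordered.  A hypergraph is a finite set `H` of functions `e : Fin r → α`; the edge `e` is the
vertex set `{(i, e i)}`.

1. shifted hypergraphs (`H` a lower set of `Fin r → ℕ`): `2 τ ≤ r ν + 1` and `τ ≤ (r - 1) ν`;
2. hypergraphs closed under coordinatewise minimum and maximum: `τ = ν`;
3. intersecting hypergraphs closed under coordinatewise minimum: `τ ≤ r - 1`.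
-/

namespace Vale.Agent.Results.P045.OrderedClasses

open Vale.Agent.Lib.P045

theorem result :
    (∀ r : ℕ, 2 ≤ r → ∀ H : Finset (Fin r → ℕ), IsLowerSet (H : Set (Fin r → ℕ)) →
      2 * tau H ≤ r * nu H + 1 ∧ tau H ≤ (r - 1) * nu H) ∧
    (∀ r : ℕ, 1 ≤ r → ∀ (α : Type) [LinearOrder α] (H : Finset (Fin r → α)),
      (∀ e ∈ H, ∀ f ∈ H, e ⊓ f ∈ H) → (∀ e ∈ H, ∀ f ∈ H, e ⊔ f ∈ H) → tau H = nu H) ∧
    (∀ r : ℕ, 2 ≤ r → ∀ (α : Type) [LinearOrder α] (H : Finset (Fin r → α)), H.Nonempty →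
      (∀ e ∈ H, ∀ f ∈ H, e ⊓ f ∈ H) → (∀ e ∈ H, ∀ f ∈ H, ∃ i, e i = f i) → tau H ≤ r - 1) :=
  ⟨fun r hr H hH => shifted_ryser r hr H hH,
   fun r hr α _ H h1 h2 => lattice_konig r hr α H h1 h2,
   fun r hr α _ H hne h1 h2 => meet_closed_intersecting r hr α H hne h1 h2⟩

end Vale.Agent.Results.P045.OrderedClasses
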