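import Mathlib
import Vale.Agent.Lib.P045.Ordered
import Vale.Agent.Lib.P045.Simplex

/-!
P045 (Ryser's conjecture): the exact extremal function on the class of shifted hypergraphs.

A hypergraph is a finite set `H` of functions `e : Fin r → ℕ`; the edge `e` is the vertex set
`{(i, e i)}`.  `H` is shifted if it is a lower set of `Fin r → ℕ`.  For every `r ≥ 2` and `k ≥ 1` the
largest covering number of a shifted `r`-partite hypergraph with matching number `k` is
`⌈r k / 2⌉ = (r k + 1) / 2`.
-/

namespace Vale.Agent.Results.P045.ShiftedExact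

open Vale.Agent.Lib.P045

theorem result (r k : ℕ) (hr : 2 ≤ r) (hk : 1 ≤ k) :
    (∀ H : Finset (Fin r → ℕ), IsLowerSet (H : Set (Fin r → ℕ)) → nu H = k →
      tau H ≤ (r * k + 1) / 2) ∧
    (∃ H : Finset (Fin r → ℕ), IsLowerSet (H : Set (Fin r → ℕ)) ∧ nu H = k ∧
      tau H = (r * k + 1) / 2) := by
  constructor
  · intro H hH hnu
    have h := (shifted_ryser r hr H hH).1
    rw [hnu] at h
    omega
  · exact ⟨simplex r ((r * k + 1) / 2 - 1), simplex_lower _ _, simplex_extremal r k hr hk⟩

end Vale.Agent.Results.P045.ShiftedExact
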