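import Mathlib
import Vale.Agent.Results.P045.OrderedClasses
import Vale.Agent.Results.P045.ShiftedExact

/-!
P045 (Ryser's conjecture): the results on `r`-partite `r`-uniform hypergraphs with linearly ordered
parts, in one statement.  A hypergraph is a finite set `H` of functions `e : Fin r → α`; the edge `e`
is the vertex set `{(i, e i)}`.

1. shifted hypergraphs (`H` a lower set of `Fin r → ℕ`): `2 τ ≤ r ν + 1` and `τ ≤ (r - 1) ν`;
2. hypergraphs closed under coordinatewise minimum and maximum: `τ = ν`;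
3. intersecting hypergraphs closed under coordinatewise minimum: `τ ≤ r - 1`;
4. the bound of 1 is attained: for all `r ≥ 2`, `k ≥ 1` the largest covering number of a shifted
   hypergraph with matching number `k` is exactly `(r k + 1) / 2`.
-/

namespace Vale.Agent.Results.P045.A_Combined

open Vale.Agent.Lib.P045

theorem result :
    (∀ r : ℕ, 2 ≤ r → ∀ H : Finset (Fin r → ℕ), IsLowerSet (H : Set (Fin r → ℕ)) →
      2 * tau H ≤ r * nu H + 1 ∧ tau H ≤ (r - 1) * nu H) ∧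
    (∀ r : ℕ, 1 ≤ r → ∀ (α : Type) [LinearOrder α] (H : Finset (Fin r → α)),
      (∀ e ∈ H, ∀ f ∈ H, e ⊓ f ∈ H) → (∀ e ∈ H, ∀ f ∈ H, e ⊔ f ∈ H) → tau H = nu H) ∧
    (∀ r : ℕ, 2 ≤ r → ∀ (α : Type) [LinearOrder α] (H : Finset (Fin r → α)), H.Nonempty →
      (∀ e ∈ H, ∀ f ∈ H, e ⊓ f ∈ H) → (∀ e ∈ H, ∀ f ∈ H, ∃ i, e i = f i) → tau H ≤ r - 1) ∧
    (∀ r k : ℕ, 2 ≤ r → 1 ≤ k →
      (∀ H : Finset (Fin r → ℕ), IsLowerSet (H : Set (Fin r → ℕ)) → nu H = k →
        tau H ≤ (r * k + 1) / 2) ∧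
      (∃ H : Finset (Fin r → ℕ), IsLowerSet (H : Set (Fin r → ℕ)) ∧ nu H = k ∧
        tau H = (r * k + 1) / 2)) :=
  ⟨Vale.Agent.Results.P045.OrderedClasses.result.1,
   Vale.Agent.Results.P045.OrderedClasses.result.2.1,
   Vale.Agent.Results.P045.OrderedClasses.result.2.2,
   fun r k hr hk => Vale.Agent.Results.P045.ShiftedExact.result r k hr hk⟩

end Vale.Agent.Results.P045.A_Combined
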