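import Mathlib

/-!
P045 (Ryser's conjecture).  Special case: *lattice* `r`-partite hypergraphs.

An `r`-partite `r`-uniform hypergraph whose `i`-th part is a copy `{i} × α` of `α` is recorded as a
finite set `H` of functions `e : Fin r → α`: the edge `e` consists of the vertices `(i, e i)`.
If `α` is linearly ordered and the edge set is closed under coordinatewise minimum and maximum, then
`τ(H) = ν(H)` (a König type equality for every `r ≥ 1`), so Ryser's inequality holds.
-/

namespace Vale.Agent.Results.P045.LatticeKonig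

variable {r : ℕ} {α : Type*}

/-- `S` is a vertex cover of `H`: every edge `e` contains a vertex `(i, e i)` of `S`. -/
def IsCover (H : Finset (Fin r → α)) (S : Finset (Fin r × α)) : Prop :=
  ∀ e ∈ H, ∃ i, (i, e i) ∈ S

/-- `M` is a matching of `H`: a set of edges of `H`, any two distinct ones having no common vertex. -/
def IsMatching (H M : Finset (Fin r → α)) : Prop :=
  M ⊆ H ∧ ∀ e ∈ M, ∀ f ∈ M, e ≠ f → ∀ i, e i ≠ f i

/-- covering number: the least size of a vertex cover. -/
noncomputable def tau (H : Finset (Fin r → α)) : ℕ :=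
  sInf {n | ∃ S : Finset (Fin r × α), IsCover H S ∧ S.card = n}

/-- matching number: the largest size of a matching. -/
noncomputable def nu (H : Finset (Fin r → α)) : ℕ :=
  sSup {n | ∃ M : Finset (Fin r → α), IsMatching H M ∧ M.card = n}

lemma tau_le {H : Finset (Fin r → α)} {S : Finset (Fin r × α)} (h : IsCover H S) :
    tau H ≤ S.card :=
  Nat.sInf_le ⟨S, h, rfl⟩

lemma le_nu {H M : Finset (Fin r → α)} (h : IsMatching H M) : M.card ≤ nu H := by
  apply le_csSup
  · refine ⟨H.card, ?_⟩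
    rintro n ⟨M', hM', rfl⟩
    exact Finset.card_le_card hM'.1
  · exact ⟨M, h, rfl⟩

/-- weak duality -/
lemma card_matching_le_card_cover {H M : Finset (Fin r → α)} {S : Finset (Fin r × α)}
    (hM : IsMatching H M) (hS : IsCover H S) : M.card ≤ S.card := by
  classical
  have h : ∀ e ∈ M, ∃ i, (i, e i) ∈ S := fun e he => hS e (hM.1 he)
  choose c hc using h
  rw [← Finset.card_attach]
  apply Finset.card_le_card_of_injOn (fun e => (c e.1 e.2, e.1 (c e.1 e.2)))
  · intro e _
    exact hc e.1 e.2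
  · intro e _ f _ hef
    by_contra hne
    simp only [Prod.mk.injEq] at hef
    obtain ⟨h1, h2⟩ := hef
    rw [← h1] at h2
    exact hM.2 e.1 e.2 f.1 f.2 (fun h => hne (Subtype.ext h)) _ h2

lemma nu_le_tau {H : Finset (Fin r → α)} {S : Finset (Fin r × α)} (hS : IsCover H S) :
    nu H ≤ tau H := by
  have hne : {n | ∃ S : Finset (Fin r × α), IsCover H S ∧ S.card = n}.Nonempty := ⟨_, S, hS, rfl⟩
  obtain ⟨S', hS', hcard⟩ := Nat.sInf_mem hne
  apply csSup_le
  · exact ⟨0, ∅, ⟨by simp, by simp⟩, rfl⟩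
  · rintro n ⟨M, hM, rfl⟩
    have := card_matching_le_card_cover hM hS'
    rw [hcard] at this
    exact this

variable [LinearOrder α]

/-- joins of witnesses -/
lemma join_witness (hr : 0 < r) {H : Finset (Fin r → α)}
    (hsup : ∀ e ∈ H, ∀ f ∈ H, e ⊔ f ∈ H) (c : Fin r → α) (X : Fin r → (Fin r → α))
    (hX : ∀ j, X j ∈ H) (hc : ∀ j, c j < X j j) :
    ∃ y ∈ H, (∀ j, c j < y j) ∧ ∀ i, ∃ j, y i = X j i := by
  have hne : (Finset.univ : Finset (Fin r)).Nonempty := ⟨⟨0, hr⟩, Finset.mem_univ _⟩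
  refine ⟨Finset.univ.sup' hne X, ?_, ?_, ?_⟩
  · exact Finset.sup'_mem (H : Set (Fin r → α)) hsup _ hne X (fun j _ => hX j)
  · intro j
    have : X j ≤ Finset.univ.sup' hne X := Finset.le_sup' X (Finset.mem_univ j)
    exact lt_of_lt_of_le (hc j) (this j)
  · intro i
    rw [Finset.sup'_apply]
    obtain ⟨j, _, hj⟩ := Finset.exists_mem_eq_sup' hne (fun a => X a i)
    exact ⟨j, hj⟩

lemma exists_top_coord (hr : 0 < r) {H : Finset (Fin r → α)}
    (hsup : ∀ e ∈ H, ∀ f ∈ H, e ⊔ f ∈ H) (g : Fin r → α)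
    (hno : ¬ ∃ x ∈ H, ∀ j, g j < x j) : ∃ i, ∀ x ∈ H, x i ≤ g i := by
  by_contra hcon
  push Not at hcon
  choose X hX hc using hcon
  obtain ⟨y, hy, hlt, _⟩ := join_witness hr hsup g X hX hc
  exact hno ⟨y, hy, hlt⟩

lemma exists_pred_coord (hr : 0 < r) {H : Finset (Fin r → α)}
    (hsup : ∀ e ∈ H, ∀ f ∈ H, e ⊔ f ∈ H) (g g' : Fin r → α)
    (hleast : ∀ x ∈ H, (∀ j, g j < x j) → g' ≤ x) (i' : Fin r) :
    ∃ i, ∀ x ∈ H, g i < x i → g' i' ≤ x i' := by
  by_contra hcon
  push Not at hcon
  choose X hX hc hlt using hcon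
  obtain ⟨y, hy, hgy, hatt⟩ := join_witness hr hsup g X hX hc
  obtain ⟨j, hj⟩ := hatt i'
  have h1 := hleast y hy hgy i'
  rw [hj] at h1
  exact absurd (hlt j) (not_lt.2 h1)

lemma exists_least {H : Finset (Fin r → α)}
    (hinf : ∀ e ∈ H, ∀ f ∈ H, e ⊓ f ∈ H) (g : Fin r → α)
    (hex : ∃ x ∈ H, ∀ j, g j < x j) :
    ∃ g' ∈ H, (∀ j, g j < g' j) ∧ ∀ x ∈ H, (∀ j, g j < x j) → g' ≤ x := by
  classical
  obtain ⟨x0, hx0, hx0'⟩ := hex
  have hne : (H.filter (fun x => ∀ j, g j < x j)).Nonempty :=
    ⟨x0, Finset.mem_filter.2 ⟨hx0, hx0'⟩⟩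
  refine ⟨(H.filter (fun x => ∀ j, g j < x j)).inf' hne id, ?_, ?_, ?_⟩
  · exact Finset.inf'_mem (H : Set (Fin r → α)) hinf _ hne id
      (fun x hx => (Finset.mem_filter.1 hx).1)
  · intro j
    rw [Finset.inf'_apply]
    obtain ⟨x, hx, hxe⟩ := Finset.exists_mem_eq_inf' hne (fun a => id a j)
    rw [hxe]
    exact (Finset.mem_filter.1 hx).2 j
  · intro x hx hgx
    exact Finset.inf'_le id (Finset.mem_filter.2 ⟨hx, hgx⟩)

open scoped Classical in
lemma main_induction (hr : 0 < r) {H : Finset (Fin r → α)}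
    (hinf : ∀ e ∈ H, ∀ f ∈ H, e ⊓ f ∈ H) (hsup : ∀ e ∈ H, ∀ f ∈ H, e ⊔ f ∈ H) :
    ∀ n : ℕ, ∀ g ∈ H, (H.filter (fun x => g ≤ x)).card ≤ n →
      ∃ (i : Fin r) (Y : Finset (Fin r × α)) (M : Finset (Fin r → α)),
        IsMatching H M ∧ (∀ f ∈ M, g ≤ f) ∧ Y.card ≤ M.card ∧
          ∀ x ∈ H, g i ≤ x i → ∃ j, (j, x j) ∈ Y := by
  classical
  intro n
  induction n with
  | zero =>
    intro g hg hcard
    exfalso
    have : g ∈ H.filter (fun x => g ≤ x) := Finset.mem_filter.2 ⟨hg, le_refl g⟩
    have := Finset.card_pos.2 ⟨g, this⟩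
    omega
  | succ n ih =>
    intro g hg hcard
    by_cases hex : ∃ x ∈ H, ∀ j, g j < x j
    · obtain ⟨g', hg', hlt, hleast⟩ := exists_least hinf g hex
      have hsub : (H.filter (fun x => g' ≤ x)) ⊂ (H.filter (fun x => g ≤ x)) := by
        refine Finset.ssubset_iff_subset_ne.2 ⟨?_, ?_⟩
        · intro x hx
          obtain ⟨hx1, hx2⟩ := Finset.mem_filter.1 hx
          exact Finset.mem_filter.2 ⟨hx1, fun j => le_trans (le_of_lt (hlt j)) (hx2 j)⟩
        · intro heq
          have : g ∈ H.filter (fun x => g' ≤ x) := by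
            rw [heq]; exact Finset.mem_filter.2 ⟨hg, le_refl g⟩
          have h2 := (Finset.mem_filter.1 this).2 ⟨0, hr⟩
          exact absurd (hlt ⟨0, hr⟩) (not_lt.2 h2)
      have hc' := Finset.card_lt_card hsub
      obtain ⟨i', Y', M', hM', hge, hYM, hcov⟩ := ih g' hg' (by omega)
      obtain ⟨i, hi⟩ := exists_pred_coord hr hsup g g' hleast i'
      have hgM : g ∉ M' := by
        intro hmem
        have := hge g hmem ⟨0, hr⟩
        exact absurd (hlt ⟨0, hr⟩) (not_lt.2 this)
      refine ⟨i, insert (i, g i) Y', insert g M', ?_, ?_, ?_, ?_⟩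
      · constructor
        · intro e he
          rcases Finset.mem_insert.1 he with rfl | he
          · exact hg
          · exact hM'.1 he
        · intro e he f hf hne j
          rcases Finset.mem_insert.1 he with he1 | he1
          · rcases Finset.mem_insert.1 hf with hf1 | hf1
            · exact absurd (he1.trans hf1.symm) hne
            · rw [he1]
              exact ne_of_lt (lt_of_lt_of_le (hlt j) (hge f hf1 j))
          · rcases Finset.mem_insert.1 hf with hf1 | hf1
            · rw [hf1]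
              exact ne_of_gt (lt_of_lt_of_le (hlt j) (hge e he1 j))
            · exact hM'.2 e he1 f hf1 hne j
      · intro f hf
        rcases Finset.mem_insert.1 hf with rfl | hf
        · exact le_refl _
        · exact fun j => le_trans (le_of_lt (hlt j)) (hge f hf j)
      · rw [Finset.card_insert_of_notMem hgM]
        exact le_trans (Finset.card_insert_le _ _) (by omega)
      · intro x hx hxi
        rcases eq_or_lt_of_le hxi with heq | hlt'
        · exact ⟨i, by rw [← heq]; exact Finset.mem_insert_self _ _⟩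
        · obtain ⟨j, hj⟩ := hcov x hx (hi x hx hlt')
          exact ⟨j, Finset.mem_insert_of_mem hj⟩
    · obtain ⟨i, hi⟩ := exists_top_coord hr hsup g hex
      refine ⟨i, {(i, g i)}, {g}, ?_, ?_, ?_, ?_⟩
      · constructor
        · intro e he
          rw [Finset.mem_singleton.1 he]; exact hg
        · intro e he f hf hne
          rw [Finset.mem_singleton.1 he, Finset.mem_singleton.1 hf] at hne
          exact absurd rfl hne
      · intro f hf
        rw [Finset.mem_singleton.1 hf]
      · simp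
      · intro x hx hxi
        exact ⟨i, by rw [le_antisymm (hi x hx) hxi]; exact Finset.mem_singleton_self _⟩

theorem result (r : ℕ) (hr : 1 ≤ r) (α : Type) [LinearOrder α] (H : Finset (Fin r → α))
    (hinf : ∀ e ∈ H, ∀ f ∈ H, e ⊓ f ∈ H) (hsup : ∀ e ∈ H, ∀ f ∈ H, e ⊔ f ∈ H) :
    tau H = nu H := by
  classical
  rcases H.eq_empty_or_nonempty with rfl | hne
  · have h1 : tau (∅ : Finset (Fin r → α)) ≤ 0 := by
      have := tau_le (H := (∅ : Finset (Fin r → α))) (S := ∅) (by intro e he; simp at he)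
      simpa using this
    have h2 := nu_le_tau (H := (∅ : Finset (Fin r → α))) (S := ∅) (by intro e he; simp at he)
    omega
  · have hbot : H.inf' hne id ∈ H :=
      Finset.inf'_mem (H : Set (Fin r → α)) hinf _ hne id (fun x hx => hx)
    obtain ⟨i, Y, M, hM, _, hYM, hcov⟩ :=
      main_induction hr hinf hsup _ (H.inf' hne id) hbot (le_refl _)
    have hY : IsCover H Y := by
      intro x hx
      exact hcov x hx ((Finset.inf'_le id hx : H.inf' hne id ≤ x) i)
    have h1 := tau_le hY
    have h2 := le_nu hM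
    have h3 := nu_le_tau hY
    omega

end Vale.Agent.Results.P045.LatticeKonig
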