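import Mathlib
import Vale.Agent.Lib.P045.Ordered
import Vale.Agent.Lib.P045.Median

/-!
P045 (Ryser's conjecture): hypergraphs closed under the coordinatewise median.

A hypergraph is a finite set `H` of functions `e : Fin r → α` (`α` a linear order); the edge `e` is the
vertex set `{(i, e i)}`.  If `H` is closed under the coordinatewise median
`(x ⊓ y) ⊔ (y ⊓ z) ⊔ (z ⊓ x)` of three edges and has a coordinatewise least edge, then `τ(H) ≤ 2 ν(H)`
whatever the number `r` of parts; in particular Ryser's inequality holds for every `r ≥ 3`.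
-/

namespace Vale.Agent.Results.P045.MedianClosed

open Vale.Agent.Lib.P045

theorem result (r : ℕ) (hr : 1 ≤ r) (α : Type) [LinearOrder α] (H : Finset (Fin r → α))
    (hmed : ∀ x ∈ H, ∀ y ∈ H, ∀ z ∈ H, (x ⊓ y) ⊔ (y ⊓ z) ⊔ (z ⊓ x) ∈ H)
    (b : Fin r → α) (hb : b ∈ H) (hble : ∀ x ∈ H, b ≤ x) :
    tau H ≤ 2 * nu H ∧ (3 ≤ r → tau H ≤ (r - 1) * nu H) := by
  have h := median_closed r hr α H hmed b hb hble
  refine ⟨h, fun h3 => le_trans h (Nat.mul_le_mul_right _ (by omega))⟩

end Vale.Agent.Results.P045.MedianClosed
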